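import Mathlib

/-!
The algebraic core of the covering argument.
-/

namespace Vale.Agent.P243

/-- Height of the triangular base attached to the cell with midpoint `m`. -/
noncomputable def rho (e d m : ℝ) : ℝ :=
  1 / 2 + e ^ 2 * (m ^ 2 + m ^ 4) / 4 + e ^ 4 / (1 - e) * (m ^ 4 * (1 + 2 * m ^ 2) ^ 2 / 32)
    + 2 * e * d

lemma rho_ge (e d m : ℝ) (he : 0 < e) (he' : e ≤ 1 / 2) (hd : 0 < d) : 1 / 2 ≤ rho e d m := by
  unfold rho
  have h1 : 0 < 1 - e := by linarith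
  have : 0 ≤ e ^ 2 * (m ^ 2 + m ^ 4) / 4 := by positivity
  have : 0 ≤ e ^ 4 / (1 - e) * (m ^ 4 * (1 + 2 * m ^ 2) ^ 2 / 32) := by positivity
  have : 0 ≤ 2 * e * d := by positivity
  linarith

lemma rho_le (e d m : ℝ) (he : 0 < e) (he' : e ≤ 1 / 2) (hd : 0 < d) (hd' : d ≤ 1 / 4)
    (hm : m ^ 2 ≤ 1) : rho e d m ≤ 1 := by
  unfold rho
  have h1 : 0 < 1 - e := by linarith
  have hm4 : m ^ 4 ≤ 1 := by nlinarith [sq_nonneg m]
  have he2 : e ^ 2 ≤ 1 / 4 := by nlinarith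
  have he4 : e ^ 4 ≤ 1 / 16 := by nlinarith [sq_nonneg e]
  have a1 : e ^ 2 * (m ^ 2 + m ^ 4) / 4 ≤ 1 / 8 := by
    have : e ^ 2 * (m ^ 2 + m ^ 4) ≤ 1 / 4 * 2 :=
      mul_le_mul he2 (by linarith) (by positivity) (by norm_num)
    linarith
  have a2 : e ^ 4 / (1 - e) ≤ 1 / 8 := by
    rw [div_le_iff₀ h1]; linarith
  have a3 : m ^ 4 * (1 + 2 * m ^ 2) ^ 2 / 32 ≤ 9 / 32 := by
    have : (1 + 2 * m ^ 2) ^ 2 ≤ 9 := by nlinarith [sq_nonneg m]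
    have : m ^ 4 * (1 + 2 * m ^ 2) ^ 2 ≤ 1 * 9 :=
      mul_le_mul hm4 this (by positivity) (by norm_num)
    linarith
  have a4 : e ^ 4 / (1 - e) * (m ^ 4 * (1 + 2 * m ^ 2) ^ 2 / 32) ≤ 1 / 8 * (9 / 32) :=
    mul_le_mul a2 a3 (by positivity) (by norm_num)
  have a5 : 2 * e * d ≤ 1 / 4 := by nlinarith
  linarith

lemma key_ineq (e d m n : ℝ) (he : 0 < e) (he' : e ≤ 1 / 2)
    (hm : m ^ 2 ≤ 1) (hn : n ^ 2 ≤ 1) :
    e ^ 2 * ((m ^ 2 + n ^ 2) / 4 + m ^ 2 * n ^ 2 / 2) + 4 * e * d ≤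
      (1 + e * m * n) * (rho e d m - 1 / 2) + (1 - e * m * n) * (rho e d n - 1 / 2) := by
  have h1 : 0 < 1 - e := by linarith
  have hmn : |m * n| ≤ 1 := by
    rw [abs_le]; constructor <;> nlinarith [sq_nonneg (m - n), sq_nonneg (m + n)]
  obtain ⟨hmn1, hmn2⟩ := abs_le.1 hmn
  set c := e ^ 4 / (1 - e) with hc
  have hc0 : 0 ≤ c := by positivity
  have hc1 : c * (1 - e) = e ^ 4 := by rw [hc]; field_simp
  set g := m ^ 4 * (1 + 2 * m ^ 2) ^ 2 / 32 with hg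
  set g' := n ^ 4 * (1 + 2 * n ^ 2) ^ 2 / 32 with hg'
  have hg0 : 0 ≤ g := by positivity
  have hg0' : 0 ≤ g' := by positivity
  have b1 : e ^ 4 * g ≤ (1 + e * m * n) * (c * g) := by
    rw [← hc1]
    have : 1 - e ≤ 1 + e * m * n := by nlinarith
    nlinarith [mul_le_mul_of_nonneg_right this (mul_nonneg hc0 hg0)]
  have b2 : e ^ 4 * g' ≤ (1 - e * m * n) * (c * g') := by
    rw [← hc1]
    have : 1 - e ≤ 1 - e * m * n := by nlinarith
    nlinarith [mul_le_mul_of_nonneg_right this (mul_nonneg hc0 hg0')]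
  have b3 : m ^ 2 * n ^ 2 * (1 + m ^ 2 + n ^ 2) ^ 2 / 16 ≤ g + g' := by
    have : g + g' - m ^ 2 * n ^ 2 * (1 + m ^ 2 + n ^ 2) ^ 2 / 16 =
        (m ^ 2 - n ^ 2) ^ 2 * (1 / 2 + 2 * m ^ 2 + 2 * n ^ 2 + 2 * m ^ 4 + 2 * n ^ 4
          + 3 * m ^ 2 * n ^ 2) / 16 := by
      rw [hg, hg']; ring
    have h2 : 0 ≤ (m ^ 2 - n ^ 2) ^ 2 * (1 / 2 + 2 * m ^ 2 + 2 * n ^ 2 + 2 * m ^ 4 + 2 * n ^ 4
          + 3 * m ^ 2 * n ^ 2) / 16 := by positivity
    linarith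
  have b4 : e ^ 4 * (m ^ 2 * n ^ 2 * (1 + m ^ 2 + n ^ 2) ^ 2 / 16) ≤ e ^ 4 * (g + g') :=
    mul_le_mul_of_nonneg_left b3 (by positivity)
  have b5 : 0 ≤ e ^ 2 / 4 * (m ^ 2 - n ^ 2 + e * m * n * (1 + m ^ 2 + n ^ 2) / 2) ^ 2 := by
    positivity
  have b6 : (1 + e * m * n) * (rho e d m - 1 / 2) + (1 - e * m * n) * (rho e d n - 1 / 2)
      = e ^ 2 * ((m ^ 2 + n ^ 2) / 4 + m ^ 2 * n ^ 2 / 2) + 4 * e * d
        + e ^ 2 / 4 * (m ^ 2 - n ^ 2 + e * m * n * (1 + m ^ 2 + n ^ 2) / 2) ^ 2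
        - e ^ 4 * (m ^ 2 * n ^ 2 * (1 + m ^ 2 + n ^ 2) ^ 2 / 16)
        + (1 + e * m * n) * (c * g) + (1 - e * m * n) * (c * g') := by
    unfold rho
    rw [← hc, ← hg, ← hg']
    ring
  rw [b6]
  linarith

lemma coef_bound (e m n g : ℝ) (he : 0 < e) (he' : e ≤ 1 / 2) (hma : |m| ≤ 1) (hna : |n| ≤ 1)
    (hg0 : 0 ≤ g) (hg1 : g ≤ e / 2) : |m + n * g + e * m ^ 2 * n| ≤ 2 := by
  have t1 : |n * g| ≤ 1 / 4 := by
    rw [abs_mul, abs_of_nonneg hg0]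
    have : |n| * g ≤ 1 * (1 / 4) := mul_le_mul hna (by linarith) hg0 (by norm_num)
    linarith
  have t2 : |e * m ^ 2 * n| ≤ 1 / 2 := by
    rw [abs_mul, abs_mul, abs_of_pos he, abs_of_nonneg (sq_nonneg m)]
    have hm1 : m ^ 2 ≤ 1 := by rw [sq_le_one_iff_abs_le_one]; exact hma
    have h1 : e * m ^ 2 ≤ 1 / 2 * 1 := mul_le_mul he' hm1 (by positivity) (by norm_num)
    have : e * m ^ 2 * |n| ≤ 1 / 2 * 1 * 1 := mul_le_mul h1 hna (by positivity) (by norm_num)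
    linarith
  have := abs_add_le (m + n * g) (e * m ^ 2 * n)
  have := abs_add_le m (n * g)
  linarith

lemma coef_bound' (e m n g : ℝ) (he : 0 < e) (he' : e ≤ 1 / 2) (hma : |m| ≤ 1) (hna : |n| ≤ 1)
    (hg0 : 0 ≤ g) (hg1 : g ≤ e / 2) : |n - m * g - e * m * n ^ 2| ≤ 2 := by
  have := coef_bound e n (-m) g he he' hna (by rwa [abs_neg]) hg0 hg1
  convert this using 2
  ring

lemma final_step (A B C X s s' r r' k W : ℝ) (hk : 0 ≤ k) (hk' : k ≤ 1 / 4)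
    (hX1 : -(1 / 2) ≤ X) (hX2 : X ≤ 1 / 2) (hA : 1 + X ≤ A) (hB : 1 - X ≤ B)
    (hs : r < s) (hs' : r' < s') (r1 : 1 / 2 ≤ r) (r2 : 1 / 2 ≤ r') (r3 : r ≤ 1) (r4 : r' ≤ 1)
    (hC : A * s + B * s' ≤ C + k * s + k * s') (hW : C - (A + B) / 2 ≤ W)
    (key : W + 2 * k ≤ (1 + X) * (r - 1 / 2) + (1 - X) * (r' - 1 / 2)) : False := by
  have k1 : (A - k) * r < (A - k) * s := mul_lt_mul_of_pos_left hs (by linarith)
  have k2 : (B - k) * r' < (B - k) * s' := mul_lt_mul_of_pos_left hs' (by linarith)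
  have k3 : (1 + X) * (r - 1 / 2) ≤ A * (r - 1 / 2) :=
    mul_le_mul_of_nonneg_right hA (by linarith)
  have k4 : (1 - X) * (r' - 1 / 2) ≤ B * (r' - 1 / 2) :=
    mul_le_mul_of_nonneg_right hB (by linarith)
  have k6 : k * r ≤ k * 1 := mul_le_mul_of_nonneg_left r3 hk
  have k7 : k * r' ≤ k * 1 := mul_le_mul_of_nonneg_left r4 hk
  nlinarith

/-- A point lying in a lower wedge and in an upper wedge lies in one of the two cylinders. -/
lemma cover_alg (e d m n x y t : ℝ) (he : 0 < e) (he' : e ≤ 1 / 2) (hd : 0 < d) (hd' : d ≤ 1 / 4)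
    (hm : m ^ 2 + d ^ 2 ≤ 1) (hn : n ^ 2 + d ^ 2 ≤ 1)
    (h1 : |y - m * t - e * (1 - m ^ 2 - d ^ 2) / 2 * x| ≤ d * (t - e * m * x))
    (h2 : |-x - n * (1 - t) - e * (1 - n ^ 2 - d ^ 2) / 2 * y| ≤ d * (1 - t - e * n * y)) :
    t - e * m * x ≤ rho e d m ∨ 1 - t - e * n * y ≤ rho e d n := by
  by_contra hcon
  push Not at hcon
  obtain ⟨hs, hs'⟩ := hcon
  have hm1 : m ^ 2 ≤ 1 := by nlinarith [sq_nonneg d]
  have hn1 : n ^ 2 ≤ 1 := by nlinarith [sq_nonneg d]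
  have hma : |m| ≤ 1 := by rw [← sq_le_one_iff_abs_le_one]; exact hm1
  have hna : |n| ≤ 1 := by rw [← sq_le_one_iff_abs_le_one]; exact hn1
  obtain ⟨gm, hgm⟩ : ∃ g, g = e * (1 - m ^ 2 - d ^ 2) / 2 := ⟨_, rfl⟩
  obtain ⟨gn, hgn⟩ : ∃ g, g = e * (1 - n ^ 2 - d ^ 2) / 2 := ⟨_, rfl⟩
  rw [← hgm] at h1
  rw [← hgn] at h2
  have hgm0 : 0 ≤ gm := by rw [hgm]; apply div_nonneg (mul_nonneg he.le (by linarith)) (by norm_num)
  have hgn0 : 0 ≤ gn := by rw [hgn]; apply div_nonneg (mul_nonneg he.le (by linarith)) (by norm_num)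
  have hgm1 : gm ≤ e / 2 := by
    have : 0 ≤ e * (m ^ 2 + d ^ 2) := by positivity
    rw [hgm]; linarith
  have hgn1 : gn ≤ e / 2 := by
    have : 0 ≤ e * (n ^ 2 + d ^ 2) := by positivity
    rw [hgn]; linarith
  have hP := coef_bound' e m n gn he he' hma hna hgn0 hgn1
  have hQ := coef_bound e m n gm he he' hma hna hgm0 hgm1
  have hPθ : |(n - m * gn - e * m * n ^ 2) * (y - m * t - gm * x)| ≤ 2 * (d * (t - e * m * x)) := by
    rw [abs_mul]; exact mul_le_mul hP h1 (abs_nonneg _) (by norm_num)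
  have hQθ : |(m + n * gm + e * m ^ 2 * n) * (-x - n * (1 - t) - gn * y)|
      ≤ 2 * (d * (1 - t - e * n * y)) := by
    rw [abs_mul]; exact mul_le_mul hQ h2 (abs_nonneg _) (by norm_num)
  have hPθ' := mul_le_mul_of_nonneg_right (abs_le.1 hPθ).1 he.le
  have hQθ' := mul_le_mul_of_nonneg_right (abs_le.1 hQθ).2 he.le
  have hmn : |m * n| ≤ 1 := by
    rw [abs_mul]
    have := mul_le_mul hma hna (abs_nonneg _) (by norm_num)
    linarith
  obtain ⟨hmn1, hmn2⟩ := abs_le.1 hmn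
  have hgg : 0 ≤ gm * gn := mul_nonneg hgm0 hgn0
  have hU : 0 ≤ e * n ^ 2 * gm := by positivity
  have hV : 0 ≤ e * m ^ 2 * gn := by positivity
  have hed : 2 * e * d ≤ 1 / 4 := by
    have := mul_le_mul he' hd' hd.le (by norm_num)
    linarith
  have hX1 : -(1 / 2) ≤ e * m * n := by
    have := mul_le_mul_of_nonneg_left hmn1 he.le
    linarith
  have hX2 : e * m * n ≤ 1 / 2 := by
    have := mul_le_mul_of_nonneg_left hmn2 he.le
    linarith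
  have k5 := key_ineq e d m n he he' hm1 hn1
  refine final_step (1 + gm * gn + e * m * n + e * n ^ 2 * gm)
    (1 + gm * gn - e * m * n + e * m ^ 2 * gn)
    (1 + gm * gn + e * n ^ 2 * gm + e * m ^ 2 * gn + (e * m * n) ^ 2) (e * m * n)
    (t - e * m * x) (1 - t - e * n * y) (rho e d m) (rho e d n) (2 * e * d)
    (e ^ 2 * ((m ^ 2 + n ^ 2) / 4 + m ^ 2 * n ^ 2 / 2)) (by positivity) hed hX1 hX2
    (by linarith) (by linarith) hs hs' (rho_ge e d m he he' hd) (rho_ge e d n he he' hd)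
    (rho_le e d m he he' hd hd' hm1) (rho_le e d n he he' hd hd' hn1) ?_ ?_ (by linarith)
  · have hid : (1 + gm * gn + e * m * n + e * n ^ 2 * gm) * (t - e * m * x)
        + (1 + gm * gn - e * m * n + e * m ^ 2 * gn) * (1 - t - e * n * y)
        + (n - m * gn - e * m * n ^ 2) * (y - m * t - gm * x) * e
        - (m + n * gm + e * m ^ 2 * n) * (-x - n * (1 - t) - gn * y) * e
        = 1 + gm * gn + e * n ^ 2 * gm + e * m ^ 2 * gn + (e * m * n) ^ 2 := by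
      ring
    linarith
  · have : e ^ 2 * ((m ^ 2 + n ^ 2) / 4 + m ^ 2 * n ^ 2 / 2)
        - ((e * n ^ 2 * gm + e * m ^ 2 * gn) / 2 + (e * m * n) ^ 2)
        = e ^ 2 * d ^ 2 * (m ^ 2 + n ^ 2) / 4 := by
      rw [hgm, hgn]; ring
    have h0 : 0 ≤ e ^ 2 * d ^ 2 * (m ^ 2 + n ^ 2) / 4 := by positivity
    linarith

/-- Discrete intermediate value principle. -/
lemma exists_sign_change (f : ℕ → ℝ) (N : ℕ) (hN : 0 < N) (h0 : f 0 ≤ 0) (h1 : 0 ≤ f N) :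
    ∃ j < N, f j ≤ 0 ∧ 0 ≤ f (j + 1) := by
  induction N with
  | zero => omega
  | succ k ih =>
    by_cases hk : f k ≤ 0
    · exact ⟨k, by omega, hk, h1⟩
    · have hk0 : 0 < k := by
        rcases Nat.eq_zero_or_pos k with rfl | h
        · exact absurd h0 hk
        · exact h
      obtain ⟨j, hj, hj'⟩ := ih hk0 (by linarith)
      exact ⟨j, by omega, hj'⟩

/-- Locating a point of the region `|y| ≤ t` in one of the wedges. -/
lemma exists_cell (e x y t : ℝ) (N : ℕ) (hN : 0 < N) (hy : |y| ≤ t) :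
    ∃ j < N, |y - (-1 + (2 * j + 1) * (1 / N : ℝ)) * t
        - e * (1 - (-1 + (2 * j + 1) * (1 / N : ℝ)) ^ 2 - (1 / N : ℝ) ^ 2) / 2 * x|
      ≤ (1 / N : ℝ) * (t - e * (-1 + (2 * j + 1) * (1 / N : ℝ)) * x) := by
  have hN' : (N : ℝ) ≠ 0 := by positivity
  obtain ⟨hy1, hy2⟩ := abs_le.1 hy
  obtain ⟨j, hj, h1, h2⟩ := exists_sign_change
    (fun j : ℕ => (-1 + 2 * j * (1 / N : ℝ)) * t + e * x * (1 - (-1 + 2 * j * (1 / N : ℝ)) ^ 2) / 2 - y)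
    N hN (by simp; linarith) (by
      have : (-1 + 2 * (N : ℝ) * (1 / N : ℝ)) = 1 := by field_simp; ring
      simp only [this]; linarith)
  refine ⟨j, hj, ?_⟩
  push_cast at h2
  rw [abs_le]
  constructor <;> nlinarith

end Vale.Agent.P243
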