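import Vale.Agent.P243.Pre

/-!
Areas of projected triangles.
-/

open MeasureTheory Set
open scoped ENNReal RealInnerProductSpace

namespace Vale.Agent.P243

abbrev E2 : Type := EuclideanSpace ℝ (Fin 2)

/-- The triple product. -/
def det3 (u v w : E3) : ℝ :=
  u 0 * (v 1 * w 2 - v 2 * w 1) - u 1 * (v 0 * w 2 - v 2 * w 0) + u 2 * (v 0 * w 1 - v 1 * w 0)

/-- Closed standard triangle. -/
def S0 : Set E2 := {z | 0 ≤ z 0 ∧ 0 ≤ z 1 ∧ z 0 + z 1 ≤ 1}

/-- Standard triangle without its bottom side. -/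
def S1 : Set E2 := {z | 0 ≤ z 0 ∧ 0 < z 1 ∧ z 0 + z 1 ≤ 1}

lemma lint_half : ∫⁻ x in Icc (0 : ℝ) 1, ENNReal.ofReal (1 - x) = ENNReal.ofReal (1 / 2) := by
  rw [← ofReal_integral_eq_lintegral_ofReal]
  · congr 1
    rw [integral_Icc_eq_integral_Ioc, ← intervalIntegral.integral_of_le zero_le_one]
    rw [intervalIntegral.integral_sub (by simp) (by simp)]
    simp
    norm_num
  · exact (continuous_const.sub continuous_id).integrableOn_Icc
  · filter_upwards [ae_restrict_mem measurableSet_Icc] with x hx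
    simp only [Pi.zero_apply]
    linarith [hx.2]

lemma mp_E2 : MeasurePreserving (fun z : E2 => (z 0, z 1)) volume volume :=
  (volume_preserving_finTwoArrow ℝ).comp (PiLp.volume_preserving_ofLp (Fin 2))

lemma vol_S0 : volume S0 = ENNReal.ofReal (1 / 2) := by
  have hm : MeasurableSet {p : ℝ × ℝ | 0 ≤ p.1 ∧ 0 ≤ p.2 ∧ p.1 + p.2 ≤ 1} := by measurability
  have : S0 = (fun z : E2 => (z 0, z 1)) ⁻¹' {p : ℝ × ℝ | 0 ≤ p.1 ∧ 0 ≤ p.2 ∧ p.1 + p.2 ≤ 1} := rfl
  rw [this, mp_E2.measure_preimage hm.nullMeasurableSet, Measure.volume_eq_prod,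
    Measure.prod_apply hm, ← lint_half, ← lintegral_indicator measurableSet_Icc]
  congr 1
  ext x
  by_cases hx : x ∈ Icc (0 : ℝ) 1
  · rw [indicator_of_mem hx]
    have : Prod.mk x ⁻¹' {p : ℝ × ℝ | 0 ≤ p.1 ∧ 0 ≤ p.2 ∧ p.1 + p.2 ≤ 1} = Icc 0 (1 - x) := by
      ext y
      simp only [mem_preimage, mem_ofPred_eq, mem_Icc]
      constructor
      · rintro ⟨_, h2, h3⟩; exact ⟨h2, by linarith⟩
      · rintro ⟨h2, h3⟩; exact ⟨hx.1, h2, by linarith⟩
    rw [this]; simp
  · rw [indicator_of_notMem hx]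
    have : Prod.mk x ⁻¹' {p : ℝ × ℝ | 0 ≤ p.1 ∧ 0 ≤ p.2 ∧ p.1 + p.2 ≤ 1} = ∅ := by
      ext y
      simp only [mem_preimage, mem_ofPred_eq, mem_empty_iff_false, iff_false]
      rintro ⟨h1, h2, h3⟩
      exact hx ⟨h1, by linarith⟩
    rw [this]; simp

lemma vol_S1 : volume S1 = ENNReal.ofReal (1 / 2) := by
  have hm : MeasurableSet {p : ℝ × ℝ | 0 ≤ p.1 ∧ 0 < p.2 ∧ p.1 + p.2 ≤ 1} := by measurability
  have : S1 = (fun z : E2 => (z 0, z 1)) ⁻¹' {p : ℝ × ℝ | 0 ≤ p.1 ∧ 0 < p.2 ∧ p.1 + p.2 ≤ 1} := rfl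
  rw [this, mp_E2.measure_preimage hm.nullMeasurableSet, Measure.volume_eq_prod,
    Measure.prod_apply hm, ← lint_half, ← lintegral_indicator measurableSet_Icc]
  congr 1
  ext x
  by_cases hx : x ∈ Icc (0 : ℝ) 1
  · rw [indicator_of_mem hx]
    have : Prod.mk x ⁻¹' {p : ℝ × ℝ | 0 ≤ p.1 ∧ 0 < p.2 ∧ p.1 + p.2 ≤ 1} = Ioc 0 (1 - x) := by
      ext y
      simp only [mem_preimage, mem_ofPred_eq, mem_Ioc]
      constructor
      · rintro ⟨_, h2, h3⟩; exact ⟨h2, by linarith⟩
      · rintro ⟨h2, h3⟩; exact ⟨hx.1, h2, by linarith⟩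
    rw [this]; simp
  · rw [indicator_of_notMem hx]
    have : Prod.mk x ⁻¹' {p : ℝ × ℝ | 0 ≤ p.1 ∧ 0 < p.2 ∧ p.1 + p.2 ≤ 1} = ∅ := by
      ext y
      simp only [mem_preimage, mem_ofPred_eq, mem_empty_iff_false, iff_false]
      rintro ⟨h1, h2, h3⟩
      exact hx ⟨h1, by linarith⟩
    rw [this]; simp

/-- Orthogonal projection onto `u^⊥`. -/
noncomputable abbrev prj (u : E3) : E3 →L[ℝ] perp u := (perp u).orthogonalProjectionOnto

lemma prj_val (u : E3) (hu : ‖u‖ = 1) (v : E3) : ((prj u v : perp u) : E3) = v - ⟪u, v⟫ • u := by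
  rw [Submodule.orthogonalProjectionOnto_orthogonal]
  simp [Submodule.starProjection_unit_singleton ℝ hu]

lemma inner3 (u v : E3) : ⟪u, v⟫ = u 0 * v 0 + u 1 * v 1 + u 2 * v 2 := by
  simp [PiLp.inner_apply, Fin.sum_univ_three]; ring

lemma norm_sq3 (u : E3) (hu : ‖u‖ = 1) : u 0 ^ 2 + u 1 ^ 2 + u 2 ^ 2 = 1 := by
  have := real_inner_self_eq_norm_sq u
  rw [inner3, hu] at this
  linarith

lemma inner_prj (u : E3) (hu : ‖u‖ = 1) (v w : E3) :
    ⟪prj u v, prj u w⟫ = ⟪v, w⟫ - ⟪u, v⟫ * ⟪u, w⟫ := by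
  rw [Submodule.coe_inner, prj_val u hu, prj_val u hu]
  have h1 : ⟪u, u⟫ = (1 : ℝ) := by rw [real_inner_self_eq_norm_sq, hu]; norm_num
  simp only [inner_sub_left, inner_sub_right, inner_smul_left, inner_smul_right, h1,
    real_inner_comm u v]
  simp

/-- The linear parametrisation of the projected parallelogram. -/
noncomputable def lin (u v w : E3) : E2 →ₗ[ℝ] perp u where
  toFun z := z 0 • prj u v + z 1 • prj u w
  map_add' a b := by simp only [PiLp.add_apply, add_smul]; abel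
  map_smul' c a := by simp [smul_add, mul_smul]

lemma normDet_lin (u : E3) (hu : ‖u‖ = 1) (v w : E3) : (lin u v w).normDet = |det3 u v w| := by
  have h := (lin u v w).normDet_sq_eq_det_gram (EuclideanSpace.basisFun (Fin 2) ℝ)
  have h0 : lin u v w (EuclideanSpace.basisFun (Fin 2) ℝ 0) = prj u v := by simp [lin]
  have h1 : lin u v w (EuclideanSpace.basisFun (Fin 2) ℝ 1) = prj u w := by simp [lin]
  rw [Matrix.det_fin_two] at h
  simp only [Matrix.gram_apply, h0, h1, inner_prj u hu, inner3] at h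
  have hn := norm_sq3 u hu
  have : (lin u v w).normDet ^ 2 = |det3 u v w| ^ 2 := by
    rw [sq_abs]
    simp only [RCLike.ofReal_real_eq_id, id] at h
    rw [h]
    unfold det3
    linear_combination (-((v 0 * v 0 + v 1 * v 1 + v 2 * v 2) * (w 0 * w 0 + w 1 * w 1 + w 2 * w 2)
      - (v 0 * w 0 + v 1 * w 1 + v 2 * w 2) ^ 2)) * hn
  exact (pow_left_inj₀ (LinearMap.normDet_nonneg _) (abs_nonneg _) two_ne_zero).1 this

lemma finrank_perp (u : E3) (hu : ‖u‖ = 1) : Module.finrank ℝ (perp u) = 2 := by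
  have hu0 : u ≠ 0 := by rintro rfl; simp at hu
  have : Fact (Module.finrank ℝ E3 = 2 + 1) := ⟨by simp⟩
  exact Submodule.finrank_orthogonal_span_singleton hu0

lemma vol_image (u : E3) (hu : ‖u‖ = 1) (v w : E3) (c : perp u) (S : Set E2) :
    volume ((fun z => c + lin u v w z) '' S) = ENNReal.ofReal |det3 u v w| * volume S := by
  have h := (lin u v w).euclideanHausdorffMeasure_image_eq_normDet_mul_volume S
  rw [normDet_lin u hu] at h
  rw [← h]
  have h2 : Module.finrank ℝ E2 = Module.finrank ℝ (perp u) := by rw [finrank_perp u hu]; simp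
  rw [h2, InnerProductSpace.euclideanHausdorffMeasure_eq_volume]
  have : (fun z => c + lin u v w z) '' S = (fun b => c + b) '' (lin u v w '' S) := by
    rw [image_image]
  rw [this, image_add_left, measure_preimage_add]

lemma tri_eq {V : Type*} [AddCommGroup V] [Module ℝ V] (c v w : V) :
    convexHull ℝ {c, c + v, c + w} = (fun z : E2 => c + (z 0 • v + z 1 • w)) '' S0 := by
  apply Subset.antisymm
  · apply convexHull_min
    · intro p hp
      simp only [mem_insert_iff, mem_singleton_iff] at hp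
      rcases hp with rfl | rfl | rfl
      · exact ⟨!₂[0, 0], by simp [S0], by simp⟩
      · exact ⟨!₂[1, 0], by simp [S0], by simp⟩
      · exact ⟨!₂[0, 1], by simp [S0], by simp⟩
    · rintro _ ⟨z, hz, rfl⟩ _ ⟨z', hz', rfl⟩ a b ha hb hab
      refine ⟨a • z + b • z', ?_, ?_⟩
      · obtain ⟨h1, h2, h3⟩ := hz
        obtain ⟨h1', h2', h3'⟩ := hz'
        simp only [S0, mem_ofPred_eq, PiLp.add_apply, PiLp.smul_apply, smul_eq_mul]
        refine ⟨by positivity, by positivity, by nlinarith⟩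
      · simp only [PiLp.add_apply, PiLp.smul_apply, smul_eq_mul]
        have : b = 1 - a := by linarith
        subst this
        module
  · rintro _ ⟨z, ⟨h1, h2, h3⟩, rfl⟩
    refine mem_convexHull_of_exists_fintype (ι := Fin 3) ![1 - z 0 - z 1, z 0, z 1]
      ![c, c + v, c + w] ?_ ?_ ?_ ?_
    · intro i; fin_cases i <;> simp <;> linarith
    · simp only [Fin.sum_univ_three, Matrix.cons_val_zero, Matrix.cons_val_one, Matrix.cons_val]
      ring
    · intro i; fin_cases i <;> simp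
    · simp only [Fin.sum_univ_three, Matrix.cons_val_zero, Matrix.cons_val_one, Matrix.cons_val]
      module

/-- Area of the projection of a triangle. -/
lemma vol_tri (u : E3) (hu : ‖u‖ = 1) (P v w : E3) :
    volume (convexHull ℝ {prj u P, prj u (P + v), prj u (P + w)})
      = ENNReal.ofReal (|det3 u v w| / 2) := by
  rw [map_add, map_add, tri_eq]
  have := vol_image u hu v w (prj u P) S0
  rw [vol_S0, ← ENNReal.ofReal_mul (abs_nonneg _)] at this
  rw [show |det3 u v w| / 2 = |det3 u v w| * (1 / 2) by ring]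
  exact this

lemma tri_sub {K : Set E3} (hK : Convex ℝ K) (u : E3) {P v w : E3} (h0 : P ∈ K) (h1 : P + v ∈ K)
    (h2 : P + w ∈ K) : convexHull ℝ {prj u P, prj u (P + v), prj u (P + w)} ⊆ prj u '' K := by
  apply convexHull_min
  · intro p hp
    simp only [mem_insert_iff, mem_singleton_iff] at hp
    rcases hp with rfl | rfl | rfl
    · exact mem_image_of_mem _ h0
    · exact mem_image_of_mem _ h1
    · exact mem_image_of_mem _ h2
  · exact hK.linear_image (prj u).toLinearMap

lemma tri_le {K : Set E3} (hK : Convex ℝ K) (u : E3) (hu : ‖u‖ = 1) {P v w : E3} (h0 : P ∈ K)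
    (h1 : P + v ∈ K) (h2 : P + w ∈ K) : ENNReal.ofReal (|det3 u v w| / 2) ≤ projAreaS K u := by
  rw [← vol_tri u hu P v w]
  exact measure_mono (tri_sub hK u h0 h1 h2)

lemma det3_prj (u : E3) (hu : ‖u‖ = 1) (v w : E3) :
    det3 u v ((prj u w : perp u) : E3) = det3 u v w := by
  rw [prj_val u hu]
  simp only [det3, PiLp.sub_apply, PiLp.smul_apply, smul_eq_mul]
  ring

lemma det3_lin (u : E3) (hu : ‖u‖ = 1) (v w : E3) (z : E2) :
    det3 u v ((lin u v w z : perp u) : E3) = z 1 * det3 u v w := by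
  have h1 := det3_prj u hu v v
  have h2 := det3_prj u hu v w
  have h3 : det3 u v v = 0 := by unfold det3; ring
  rw [h3] at h1
  rw [← h2]
  have : ((lin u v w z : perp u) : E3)
      = z 0 • ((prj u v : perp u) : E3) + z 1 • ((prj u w : perp u) : E3) := by
    simp [lin]
  rw [this]
  simp only [det3, PiLp.add_apply, PiLp.smul_apply, smul_eq_mul] at h1 ⊢
  linear_combination (z 0) * h1

lemma quad_le_aux {K : Set E3} (hK : Convex ℝ K) (u : E3) (hu : ‖u‖ = 1) {P v w w' : E3}
    (h0 : P ∈ K) (h1 : P + v ∈ K) (h2 : P + w ∈ K) (h3 : P + w' ∈ K)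
    (hw : 0 < det3 u v w) (hw' : det3 u v w' ≤ 0) :
    ENNReal.ofReal ((det3 u v w - det3 u v w') / 2) ≤ projAreaS K u := by
  set T1 := (fun z => prj u P + lin u v w z) '' S1 with hT1
  set T2 := convexHull ℝ {prj u P, prj u (P + v), prj u (P + w')} with hT2
  have hT2' : T2 = (fun z => prj u P + lin u v w' z) '' S0 := by
    rw [hT2, map_add, map_add, tri_eq]; rfl
  have v1 : volume T1 = ENNReal.ofReal (det3 u v w / 2) := by
    rw [hT1, vol_image u hu, vol_S1, ← ENNReal.ofReal_mul (abs_nonneg _), abs_of_pos hw]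
    congr 1; ring
  have v2 : volume T2 = ENNReal.ofReal (- det3 u v w' / 2) := by
    rw [hT2, vol_tri u hu, abs_of_nonpos hw']
  have hdisj : Disjoint T1 T2 := by
    rw [Set.disjoint_left, hT2']
    rintro _ ⟨z, hz, rfl⟩ ⟨z', hz', h⟩
    have h' : lin u v w' z' = lin u v w z := add_left_cancel h
    have e1 := det3_lin u hu v w z
    have e2 := det3_lin u hu v w' z'
    rw [h', e1] at e2
    have := mul_pos hz.2.1 hw
    have := mul_nonneg hz'.2.1 (neg_nonneg.2 hw')
    linarith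
  have hm : MeasurableSet T2 :=
    (Set.Finite.isCompact_convexHull ℝ (toFinite _)).isClosed.measurableSet
  have hsub : T1 ∪ T2 ⊆ prj u '' K := by
    apply union_subset _ (tri_sub hK u h0 h1 h3)
    refine Subset.trans ?_ (tri_sub hK u h0 h1 h2)
    rw [map_add, map_add, tri_eq]
    exact image_mono fun z hz => ⟨hz.1, hz.2.1.le, hz.2.2⟩
  calc ENNReal.ofReal ((det3 u v w - det3 u v w') / 2)
      = volume T1 + volume T2 := by
        rw [v1, v2, ← ENNReal.ofReal_add (by linarith) (by linarith)]; congr 1; ring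
    _ = volume (T1 ∪ T2) := (measure_union hdisj hm).symm
    _ ≤ projAreaS K u := measure_mono hsub

/-- The projection of a convex set containing two segments has area at least half the
cross product of the projected segments. -/
lemma quad_le {K : Set E3} (hK : Convex ℝ K) (u : E3) (hu : ‖u‖ = 1) {P v w w' : E3}
    (h0 : P ∈ K) (h1 : P + v ∈ K) (h2 : P + w ∈ K) (h3 : P + w' ∈ K) :
    ENNReal.ofReal (|det3 u v w - det3 u v w'| / 2) ≤ projAreaS K u := by
  have t1 := tri_le hK u hu h0 h1 h2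
  have t2 := tri_le hK u hu h0 h1 h3
  rcases lt_or_ge 0 (det3 u v w) with hw | hw <;> rcases lt_or_ge 0 (det3 u v w') with hw' | hw'
  · rcases le_total (det3 u v w) (det3 u v w') with h | h
    · refine le_trans (ENNReal.ofReal_le_ofReal ?_) t2
      rw [abs_of_nonpos (by linarith), abs_of_pos hw']; linarith
    · refine le_trans (ENNReal.ofReal_le_ofReal ?_) t1
      rw [abs_of_nonneg (by linarith), abs_of_pos hw]; linarith
  · rw [abs_of_nonneg (by linarith)]
    exact quad_le_aux hK u hu h0 h1 h2 h3 hw hw'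
  · rw [abs_sub_comm, abs_of_nonneg (by linarith)]
    exact quad_le_aux hK u hu h0 h1 h3 h2 hw' hw
  · rcases le_total (det3 u v w) (det3 u v w') with h | h
    · refine le_trans (ENNReal.ofReal_le_ofReal ?_) t1
      rw [abs_of_nonpos (by linarith), abs_of_nonpos hw]; linarith
    · refine le_trans (ENNReal.ofReal_le_ofReal ?_) t2
      rw [abs_of_nonneg (by linarith), abs_of_nonpos hw']; linarith

end Vale.Agent.P243
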