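import Vale.Agent.P243.Sum

/-!
Passing from bases inside the subspace `u^⊥` to subsets of three-space.
-/

open MeasureTheory Set
open scoped ENNReal RealInnerProductSpace

namespace Vale.Agent.P243

lemma area_coe (u : E3) (hu : ‖u‖ = 1) (B : Set (perp u)) :
    area (Subtype.val '' B) = volume B := by
  rw [area, isometry_subtype_coe.euclideanHausdorffMeasure_image,
    ← InnerProductSpace.euclideanHausdorffMeasure_eq_volume, finrank_perp u hu]

lemma projArea_eq (K : Set E3) (u : E3) (hu : ‖u‖ = 1) : projArea K u = projAreaS K u := by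
  rw [projArea, projAreaS, ← area_coe u hu, image_image]
  congr 2
  ext1 x
  exact (prj_val u hu x).symm

lemma Amin_eq (K : Set E3) : Amin K = AminS K :=
  iInf_congr fun u => iInf_congr fun hu => projArea_eq K u hu

lemma coe_tri (u : E3) (a b c : perp u) :
    Subtype.val '' convexHull ℝ {a, b, c} = convexHull ℝ {(a : E3), (b : E3), (c : E3)} := by
  have := (perp u).subtype.image_convexHull {a, b, c}
  simpa [image_insert_eq] using this

lemma bridge {K : Set E3} {m : ℕ} {u : Fin m → E3} {B : ∀ i, Set (perp (u i))}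
    (h : IsCylinderCoverS K m u B) (ht : ∀ i, ∃ a b c : perp (u i), B i = convexHull ℝ {a, b, c}) :
    IsCylinderCover K m u (fun i => Subtype.val '' B i) ∧
      (∀ i, ∃ a b c : E3, Subtype.val '' B i = convexHull ℝ {a, b, c}) := by
  have ht' : ∀ i, ∃ a b c : E3, Subtype.val '' B i = convexHull ℝ {a, b, c} := by
    intro i
    obtain ⟨a, b, c, h⟩ := ht i
    exact ⟨a, b, c, by rw [h, coe_tri]⟩
  refine ⟨⟨fun i => ⟨h.1 i, ?_, ?_, ?_⟩, ?_⟩, ht'⟩
  · rintro _ ⟨b, -, rfl⟩
    exact Submodule.mem_orthogonal_singleton_iff_inner_right.1 b.2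
  · obtain ⟨a, b, c, h⟩ := ht' i
    simp only [h]
    exact (Set.Finite.isCompact_convexHull ℝ (toFinite _)).isClosed.measurableSet
  · rw [area_coe _ (h.1 i)]
    obtain ⟨a, b, c, h⟩ := ht i
    rw [h]
    exact (Set.Finite.isCompact_convexHull ℝ (toFinite _)).measure_lt_top
  · intro p hp
    obtain ⟨i, b, hb, s, hs⟩ := mem_iUnion.1 (h.2 hp)
    exact mem_iUnion.2 ⟨i, b, mem_image_of_mem _ hb, s, hs⟩

theorem Amin_tet' : Amin tet = ENNReal.ofReal √2 := by rw [Amin_eq, Amin_tet]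

theorem cover_abs' : ∃ (m : ℕ) (u : Fin m → E3) (B : Fin m → Set E3),
    IsCylinderCover tet m u B ∧ (∀ i, ∃ a b c : E3, B i = convexHull ℝ {a, b, c}) ∧
      ∑ i, area (B i) ≤ 1999 / 4000 * Amin tet := by
  obtain ⟨m, u, B, h1, h2, h3⟩ := cover_abs
  refine ⟨m, u, _, (bridge h1 h2).1, (bridge h1 h2).2, ?_⟩
  rw [Amin_eq]
  refine le_of_eq_of_le (Finset.sum_congr rfl fun i _ => area_coe _ (h1.1 i) _) h3

theorem cover_rel' : ∃ (m : ℕ) (u : Fin m → E3) (B : Fin m → Set E3),
    IsCylinderCover tet m u B ∧ (∀ i, ∃ a b c : E3, B i = convexHull ℝ {a, b, c}) ∧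
      ∑ i, area (B i) / projArea tet (u i) ≤ 54 / 125 := by
  obtain ⟨m, u, B, h1, h2, h3⟩ := cover_rel
  refine ⟨m, u, _, (bridge h1 h2).1, (bridge h1 h2).2, ?_⟩
  refine le_of_eq_of_le (Finset.sum_congr rfl fun i _ => ?_) h3
  rw [area_coe _ (h1.1 i), projArea_eq _ _ (h1.1 i)]

end Vale.Agent.P243
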