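import Vale.Agent.P243.Tet
import Vale.Agent.P243.Algebra

/-!
The two fans of thin triangular cylinders.
-/

open MeasureTheory Set
open scoped ENNReal RealInnerProductSpace

namespace Vale.Agent.P243

noncomputable def mid (N j : ℕ) : ℝ := -1 + (2 * j + 1) * (1 / N : ℝ)

noncomputable def aa (e d m : ℝ) : ℝ := e * (1 + m ^ 2 - d ^ 2) / 2

noncomputable def nrm (e d m : ℝ) : ℝ := √(1 + aa e d m ^ 2 + 2 * (e * m) ^ 2)

lemma nrm_pos (e d m : ℝ) : 0 < nrm e d m := Real.sqrt_pos.2 (by positivity)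

lemma nrm_sq (e d m : ℝ) : nrm e d m ^ 2 = 1 + aa e d m ^ 2 + 2 * (e * m) ^ 2 :=
  Real.sq_sqrt (by positivity)

noncomputable def uL (e d m : ℝ) : E3 := (nrm e d m)⁻¹ • !₂[1, aa e d m, √2 * (e * m)]

noncomputable def uU (e d m : ℝ) : E3 := (nrm e d m)⁻¹ • !₂[-aa e d m, 1, -(√2 * (e * m))]

lemma norm_eq_one_of (u : E3) (h : u 0 ^ 2 + u 1 ^ 2 + u 2 ^ 2 = 1) : ‖u‖ = 1 := by
  have := real_inner_self_eq_norm_sq u
  rw [inner3] at this
  have h2 : ‖u‖ ^ 2 = 1 ^ 2 := by linarith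
  exact (pow_left_inj₀ (norm_nonneg _) zero_le_one two_ne_zero).1 h2

lemma uL_norm (e d m : ℝ) : ‖uL e d m‖ = 1 := by
  apply norm_eq_one_of
  have h1 := nrm_pos e d m
  have h2 := nrm_sq e d m
  have h3 := sq2
  simp only [uL, PiLp.smul_apply, smul_eq_mul, Matrix.cons_val_zero, Matrix.cons_val_one,
    Matrix.cons_val]
  field_simp
  linear_combination (e * m) ^ 2 * h3 - h2

lemma uU_norm (e d m : ℝ) : ‖uU e d m‖ = 1 := by
  apply norm_eq_one_of
  have h1 := nrm_pos e d m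
  have h2 := nrm_sq e d m
  have h3 := sq2
  simp only [uU, PiLp.smul_apply, smul_eq_mul, Matrix.cons_val_zero, Matrix.cons_val_one,
    Matrix.cons_val]
  field_simp
  linear_combination (e * m) ^ 2 * h3 - h2

noncomputable def tri (u P v w : E3) : Set (perp u) :=
  convexHull ℝ {prj u P, prj u (P + v), prj u (P + w)}

noncomputable def BL (e d m : ℝ) : Set (perp (uL e d m)) :=
  tri (uL e d m) 0 (rho e d m • !₂[0, m - d, √2]) (rho e d m • !₂[0, m + d, √2])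

noncomputable def BU (e d m : ℝ) : Set (perp (uU e d m)) :=
  tri (uU e d m) !₂[0, 0, √2] (rho e d m • !₂[-(m - d), 0, -√2]) (rho e d m • !₂[-(m + d), 0, -√2])

lemma mem_cyl (u : E3) (hu : ‖u‖ = 1) (P v w p : E3) (l1 l2 s : ℝ) (h1 : 0 ≤ l1) (h2 : 0 ≤ l2)
    (h3 : l1 + l2 ≤ 1) (hp : p = P + (l1 • v + l2 • w) + s • u) :
    p ∈ cylinderS u (tri u P v w) := by
  refine ⟨prj u (P + (l1 • v + l2 • w)), ?_, ⟪u, P + (l1 • v + l2 • w)⟫ + s, ?_⟩
  · rw [tri, map_add, map_add, tri_eq]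
    refine ⟨!₂[l1, l2], ⟨h1, h2, h3⟩, ?_⟩
    simp
  · rw [prj_val u hu, hp, add_smul]; abel

lemma vol_BL (e d m : ℝ) (hd : 0 < d) :
    volume (BL e d m) = ENNReal.ofReal (√2 * (d * rho e d m ^ 2 / nrm e d m)) := by
  rw [BL, tri, vol_tri _ (uL_norm e d m)]
  congr 1
  have h1 := nrm_pos e d m
  have h2 := sq2_pos
  have : det3 (uL e d m) (rho e d m • !₂[0, m - d, √2]) (rho e d m • !₂[0, m + d, √2])
      = -(2 * (√2 * (d * rho e d m ^ 2 / nrm e d m))) := by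
    simp [det3, uL]
    field_simp
    ring
  rw [this, abs_neg, abs_of_nonneg (by positivity)]; ring

lemma vol_BU (e d m : ℝ) (hd : 0 < d) :
    volume (BU e d m) = ENNReal.ofReal (√2 * (d * rho e d m ^ 2 / nrm e d m)) := by
  rw [BU, tri, vol_tri _ (uU_norm e d m)]
  congr 1
  have h1 := nrm_pos e d m
  have h2 := sq2_pos
  have : det3 (uU e d m) (rho e d m • !₂[-(m - d), 0, -√2]) (rho e d m • !₂[-(m + d), 0, -√2])
      = (2 * (√2 * (d * rho e d m ^ 2 / nrm e d m))) := by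
    simp [det3, uU]
    field_simp
    ring
  rw [this, abs_of_nonneg (by positivity)]; ring

lemma aa_nonneg (e d m : ℝ) (he : 0 < e) (hd : 0 < d) (hd' : d ≤ 1 / 4) : 0 ≤ aa e d m := by
  unfold aa
  have : 0 ≤ 1 + m ^ 2 - d ^ 2 := by nlinarith [sq_nonneg m]
  positivity

lemma rel_aux (A P : ℝ≥0∞) (a n x : ℝ) (ha : 0 ≤ a) (hn : 0 < n) (_hx : 0 ≤ x)
    (hA : A = ENNReal.ofReal (√2 * (x / n))) (hP : ENNReal.ofReal (√2 * ((1 + a) / n)) ≤ P) :
    A / P ≤ ENNReal.ofReal (x / (1 + a)) := by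
  have h2 := sq2_pos
  refine le_trans (ENNReal.div_le_div_left hP A) (le_of_eq ?_)
  rw [hA, ← ENNReal.ofReal_div_of_pos (by positivity)]
  congr 1
  field_simp

lemma rel_BL (e d m : ℝ) (he : 0 < e) (hd : 0 < d) (hd' : d ≤ 1 / 4) :
    volume (BL e d m) / projAreaS tet (uL e d m)
      ≤ ENNReal.ofReal (d * rho e d m ^ 2 / (1 + aa e d m)) := by
  have ha := aa_nonneg e d m he hd hd'
  have hn := nrm_pos e d m
  refine rel_aux _ _ _ _ _ ha hn (by positivity) (vol_BL e d m hd) ?_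
  convert pa_add _ (uL_norm e d m) using 3
  rw [abs_of_nonneg]
  · simp [uL]; field_simp
  · simp [uL]; positivity

lemma rel_BU (e d m : ℝ) (he : 0 < e) (hd : 0 < d) (hd' : d ≤ 1 / 4) :
    volume (BU e d m) / projAreaS tet (uU e d m)
      ≤ ENNReal.ofReal (d * rho e d m ^ 2 / (1 + aa e d m)) := by
  have ha := aa_nonneg e d m he hd hd'
  have hn := nrm_pos e d m
  refine rel_aux _ _ _ _ _ ha hn (by positivity) (vol_BU e d m hd) ?_
  convert pa_sub _ (uU_norm e d m) using 3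
  have : (uU e d m) 0 - (uU e d m) 1 = -((1 + aa e d m) / nrm e d m) := by
    simp [uU]; field_simp; ring
  rw [this, abs_neg, abs_of_nonneg (by positivity)]

lemma mid_bound (N j : ℕ) (hj : j < N) : mid N j ^ 2 + (1 / N : ℝ) ^ 2 ≤ 1 := by
  have hN : (0 : ℝ) < N := by exact_mod_cast (by omega : 0 < N)
  have h1 : (j : ℝ) + 1 ≤ N := by exact_mod_cast hj
  have h0 : (0 : ℝ) ≤ j := by positivity
  have : 1 - (mid N j ^ 2 + (1 / N : ℝ) ^ 2)
      = (2 * (2 * j + 1) * (N - (j + 1)) + 2 * j) / N ^ 2 := by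
    unfold mid; field_simp; ring
  have h3 : 0 ≤ (2 * (2 * j + 1) * (N - (j + 1)) + 2 * j : ℝ) / N ^ 2 := by
    apply div_nonneg _ (by positivity)
    have : (0 : ℝ) ≤ N - (j + 1) := by linarith
    positivity
  linarith

lemma memL (e d m : ℝ) (he : 0 < e) (he' : e ≤ 1 / 2) (hd : 0 < d) (p : E3)
    (h1 : |p 1 - m * (p 2 / √2) - e * (1 - m ^ 2 - d ^ 2) / 2 * p 0|
      ≤ d * (p 2 / √2 - e * m * p 0))
    (h2 : p 2 / √2 - e * m * p 0 ≤ rho e d m) : p ∈ cylinderS (uL e d m) (BL e d m) := by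
  have hr : 0 < rho e d m := by linarith [rho_ge e d m he he' hd]
  have hn := nrm_pos e d m
  have hs := sq2_pos
  obtain ⟨h1a, h1b⟩ := abs_le.1 h1
  refine mem_cyl _ (uL_norm e d m) _ _ _ p
    ((d * (p 2 / √2 - e * m * p 0)
      - (p 1 - m * (p 2 / √2) - e * (1 - m ^ 2 - d ^ 2) / 2 * p 0)) / (2 * d * rho e d m))
    ((d * (p 2 / √2 - e * m * p 0)
      + (p 1 - m * (p 2 / √2) - e * (1 - m ^ 2 - d ^ 2) / 2 * p 0)) / (2 * d * rho e d m))
    (p 0 * nrm e d m) (div_nonneg (by linarith) (by positivity))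
    (div_nonneg (by linarith) (by positivity)) ?_ ?_
  · rw [← add_div, div_le_one (by positivity)]
    nlinarith
  · ext i
    fin_cases i <;> simp [uL, aa] <;> field_simp <;> ring

lemma memU (e d m : ℝ) (he : 0 < e) (he' : e ≤ 1 / 2) (hd : 0 < d) (p : E3)
    (h1 : |-p 0 - m * (1 - p 2 / √2) - e * (1 - m ^ 2 - d ^ 2) / 2 * p 1|
      ≤ d * (1 - p 2 / √2 - e * m * p 1))
    (h2 : 1 - p 2 / √2 - e * m * p 1 ≤ rho e d m) : p ∈ cylinderS (uU e d m) (BU e d m) := by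
  have hr : 0 < rho e d m := by linarith [rho_ge e d m he he' hd]
  have hn := nrm_pos e d m
  have hs := sq2_pos
  obtain ⟨h1a, h1b⟩ := abs_le.1 h1
  refine mem_cyl _ (uU_norm e d m) _ _ _ p
    ((d * (1 - p 2 / √2 - e * m * p 1)
      - (-p 0 - m * (1 - p 2 / √2) - e * (1 - m ^ 2 - d ^ 2) / 2 * p 1)) / (2 * d * rho e d m))
    ((d * (1 - p 2 / √2 - e * m * p 1)
      + (-p 0 - m * (1 - p 2 / √2) - e * (1 - m ^ 2 - d ^ 2) / 2 * p 1)) / (2 * d * rho e d m))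
    (p 1 * nrm e d m) (div_nonneg (by linarith) (by positivity))
    (div_nonneg (by linarith) (by positivity)) ?_ ?_
  · rw [← add_div, div_le_one (by positivity)]
    nlinarith
  · ext i
    fin_cases i <;> simp [uU, aa] <;> field_simp <;> ring

noncomputable def uF (e : ℝ) (N : ℕ) : Fin N ⊕ Fin N → E3
  | Sum.inl j => uL e (1 / N) (mid N j)
  | Sum.inr j => uU e (1 / N) (mid N j)

noncomputable def BF (e : ℝ) (N : ℕ) : (i : Fin N ⊕ Fin N) → Set (perp (uF e N i))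
  | Sum.inl j => BL e (1 / N) (mid N j)
  | Sum.inr j => BU e (1 / N) (mid N j)

lemma cover_F (e : ℝ) (N : ℕ) (he : 0 < e) (he' : e ≤ 1 / 2) (hN : 4 ≤ N) :
    tet ⊆ ⋃ i, cylinderS (uF e N i) (BF e N i) := by
  intro p hp
  obtain ⟨hy, hx⟩ := tet_sub hp
  have hN0 : 0 < N := by omega
  have hNr : (4 : ℝ) ≤ N := by exact_mod_cast hN
  have hd : (0 : ℝ) < 1 / N := by positivity
  have hd' : (1 / N : ℝ) ≤ 1 / 4 := one_div_le_one_div_of_le (by norm_num) hNr
  obtain ⟨j, hj, h1⟩ := exists_cell e (p 0) (p 1) (p 2 / √2) N hN0 hy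
  obtain ⟨k, hk, h2⟩ := exists_cell e (p 1) (-p 0) (1 - p 2 / √2) N hN0 (by rwa [abs_neg])
  rcases cover_alg e (1 / N) (mid N j) (mid N k) (p 0) (p 1) (p 2 / √2) he he' hd hd'
    (mid_bound N j hj) (mid_bound N k hk) h1 h2 with h | h
  · exact mem_iUnion.2 ⟨Sum.inl ⟨j, hj⟩, memL e _ _ he he' hd p h1 h⟩
  · exact mem_iUnion.2 ⟨Sum.inr ⟨k, hk⟩, memU e _ _ he he' hd p h2 h⟩

lemma uF_norm (e : ℝ) (N : ℕ) (i : Fin N ⊕ Fin N) : ‖uF e N i‖ = 1 := by
  rcases i with j | j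
  · exact uL_norm e (1 / N) (mid N j)
  · exact uU_norm e (1 / N) (mid N j)

theorem general (e : ℝ) (N : ℕ) (he : 0 < e) (he' : e ≤ 1 / 2) (hN : 4 ≤ N) :
    ∃ (m : ℕ) (u : Fin m → E3) (B : ∀ i, Set (perp (u i))), IsCylinderCoverS tet m u B ∧
      (∀ i, ∃ a b c : perp (u i), B i = convexHull ℝ {a, b, c}) ∧
      ∑ i, volume (B i) = ENNReal.ofReal (√2 * (2 * ∑ j ∈ Finset.range N,
        (1 / N : ℝ) * rho e (1 / N) (mid N j) ^ 2 / nrm e (1 / N) (mid N j))) ∧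
      ∑ i, volume (B i) / projAreaS tet (u i) ≤ ENNReal.ofReal (2 * ∑ j ∈ Finset.range N,
        (1 / N : ℝ) * rho e (1 / N) (mid N j) ^ 2 / (1 + aa e (1 / N) (mid N j))) := by
  have hNr : (4 : ℝ) ≤ N := by exact_mod_cast hN
  have hd : (0 : ℝ) < 1 / N := by positivity
  have hd' : (1 / N : ℝ) ≤ 1 / 4 := one_div_le_one_div_of_le (by norm_num) hNr
  have hs := sq2_pos
  let σ : Fin (N + N) ≃ Fin N ⊕ Fin N := finSumFinEquiv.symm
  have htri : ∀ i, ∃ a b c : perp (uF e N i), BF e N i = convexHull ℝ {a, b, c} := by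
    rintro (j | j)
    · exact ⟨_, _, _, rfl⟩
    · exact ⟨_, _, _, rfl⟩
  refine ⟨N + N, fun i => uF e N (σ i), fun i => BF e N (σ i), ⟨fun i => ?_, ?_⟩,
    fun i => htri _, ?_, ?_⟩
  · exact uF_norm e N (σ i)
  · intro p hp
    obtain ⟨i, hi⟩ := mem_iUnion.1 (cover_F e N he he' hN hp)
    refine mem_iUnion.2 ⟨σ.symm i, ?_⟩
    have : ∀ i', σ i' = i → p ∈ cylinderS (uF e N (σ i')) (BF e N (σ i')) := by
      intro i' h; subst h; exact hi
    exact this _ (σ.apply_symm_apply i)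
  · rw [Equiv.sum_comp σ (fun i => volume (BF e N i)), Fintype.sum_sum_type]
    have h1 : ∀ j : Fin N, volume (BF e N (Sum.inl j)) = ENNReal.ofReal (√2 * ((1 / N : ℝ)
        * rho e (1 / N) (mid N j) ^ 2 / nrm e (1 / N) (mid N j))) := fun j => vol_BL _ _ _ hd
    have h2 : ∀ j : Fin N, volume (BF e N (Sum.inr j)) = ENNReal.ofReal (√2 * ((1 / N : ℝ)
        * rho e (1 / N) (mid N j) ^ 2 / nrm e (1 / N) (mid N j))) := fun j => vol_BU _ _ _ hd
    have hnn : ∀ j : ℕ, 0 ≤ √2 * ((1 / N : ℝ)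
        * rho e (1 / N) (mid N j) ^ 2 / nrm e (1 / N) (mid N j)) := fun j => by
      have := nrm_pos e (1 / N) (mid N j)
      positivity
    simp only [h1, h2]
    rw [← ENNReal.ofReal_sum_of_nonneg (fun (j : Fin N) _ => hnn j),
      ← ENNReal.ofReal_add (Finset.sum_nonneg fun (j : Fin N) _ => hnn j)
        (Finset.sum_nonneg fun (j : Fin N) _ => hnn j),
      Fin.sum_univ_eq_sum_range (fun j => √2 * ((1 / N : ℝ)
        * rho e (1 / N) (mid N j) ^ 2 / nrm e (1 / N) (mid N j))) N, ← Finset.mul_sum]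
    congr 1; ring
  · rw [Equiv.sum_comp σ (fun i => volume (BF e N i) / projAreaS tet (uF e N i)),
      Fintype.sum_sum_type]
    have hnn : ∀ j : ℕ, 0 ≤ ((1 / N : ℝ)
        * rho e (1 / N) (mid N j) ^ 2 / (1 + aa e (1 / N) (mid N j))) := fun j => by
      have := aa_nonneg e (1 / N) (mid N j) he hd hd'
      positivity
    refine le_trans (add_le_add (Finset.sum_le_sum fun j _ => rel_BL e _ (mid N j) he hd hd')
      (Finset.sum_le_sum fun j _ => rel_BU e _ (mid N j) he hd hd')) (le_of_eq ?_)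
    rw [← ENNReal.ofReal_sum_of_nonneg (fun (j : Fin N) _ => hnn j),
      ← ENNReal.ofReal_add (Finset.sum_nonneg fun (j : Fin N) _ => hnn j)
        (Finset.sum_nonneg fun (j : Fin N) _ => hnn j),
      Fin.sum_univ_eq_sum_range (fun j => ((1 / N : ℝ)
        * rho e (1 / N) (mid N j) ^ 2 / (1 + aa e (1 / N) (mid N j)))) N]
    congr 1; ring

end Vale.Agent.P243
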