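import Mathlib

/-!
Definitions for Bang's cylinder covering problem in Euclidean three-space.
-/

open MeasureTheory
open scoped ENNReal

namespace Vale.Agent.P243

/-- Euclidean three-space. -/
abbrev E3 : Type := EuclideanSpace ℝ (Fin 3)

/-- A convex body: a compact convex set with nonempty interior. -/
def IsConvexBody (K : Set E3) : Prop :=
  IsCompact K ∧ Convex ℝ K ∧ (interior K).Nonempty

/-- Area: the two-dimensional Hausdorff measure normalised to agree with Lebesgue measure on
every plane. -/
noncomputable def area (B : Set E3) : ℝ≥0∞ :=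
  Measure.euclideanHausdorffMeasure 2 B

/-- For a unit vector `u`, the orthogonal projection of `x` onto the plane `u^⊥`. -/
noncomputable def proj (u x : E3) : E3 :=
  x - inner ℝ u x • u

/-- The area of the orthogonal projection of `K` onto the plane `u^⊥`. -/
noncomputable def projArea (K : Set E3) (u : E3) : ℝ≥0∞ :=
  area (proj u '' K)

/-- The smallest area of an orthogonal projection of `K` onto a plane. -/
noncomputable def Amin (K : Set E3) : ℝ≥0∞ :=
  ⨅ (u : E3) (_ : ‖u‖ = 1), projArea K u

/-- The cylinder `B + ℝ u`. -/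
def cylinder (u : E3) (B : Set E3) : Set E3 :=
  {p | ∃ b ∈ B, ∃ s : ℝ, p = b + s • u}

/-- An admissible axis and base: `u` is a unit vector and `B` is a measurable subset of the plane
`u^⊥` of finite area. -/
def IsBase (u : E3) (B : Set E3) : Prop :=
  ‖u‖ = 1 ∧ (∀ b ∈ B, inner ℝ u b = 0) ∧ MeasurableSet B ∧ area B < ∞

/-- `(B i + ℝ (u i))`, `i < m`, is a finite covering of `K` by cylinders. -/
def IsCylinderCover (K : Set E3) (m : ℕ) (u : Fin m → E3) (B : Fin m → Set E3) : Prop :=
  (∀ i, IsBase (u i) (B i)) ∧ K ⊆ ⋃ i, cylinder (u i) (B i)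

/-- The point `(x, y, z)`. -/
noncomputable abbrev pt (x y z : ℝ) : E3 := !₂[x, y, z]

/-- The regular tetrahedron of edge length `2` with vertices `(±1, 0, 0)` and `(0, ±1, √2)`. -/
noncomputable def tet : Set E3 :=
  convexHull ℝ {pt 1 0 0, pt (-1) 0 0, pt 0 1 √2, pt 0 (-1) √2}

end Vale.Agent.P243
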