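import Vale.Agent.P243.Defs

/-!
Auxiliary versions of the definitions, with bases living in the subspace `u^⊥`.
-/

open MeasureTheory
open scoped ENNReal

namespace Vale.Agent.P243

noncomputable abbrev perp (u : E3) : Submodule ℝ E3 := (Submodule.span ℝ {u})ᗮ

noncomputable def projAreaS (K : Set E3) (u : E3) : ℝ≥0∞ :=
  volume ((perp u).orthogonalProjectionOnto '' K)

noncomputable def AminS (K : Set E3) : ℝ≥0∞ :=
  ⨅ (u : E3) (_ : ‖u‖ = 1), projAreaS K u

def cylinderS (u : E3) (B : Set (perp u)) : Set E3 :=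
  {p | ∃ b ∈ B, ∃ s : ℝ, p = (b : E3) + s • u}

def IsCylinderCoverS (K : Set E3) (m : ℕ) (u : Fin m → E3) (B : ∀ i, Set (perp (u i))) : Prop :=
  (∀ i, ‖u i‖ = 1) ∧ K ⊆ ⋃ i, cylinderS (u i) (B i)

end Vale.Agent.P243
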