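import Vale.Agent.P243.Cover

/-!
Numerical bounds for the total area.
-/

open MeasureTheory Set
open scoped ENNReal

namespace Vale.Agent.P243

lemma tele (c0 c1 c2 c3 c4 : ℝ) (h2 : 0 ≤ c2) (h3 : 0 ≤ c3) (h4 : 0 ≤ c4) (N : ℕ) (hN : 0 < N) :
    ∑ j ∈ Finset.range N, (1 / N : ℝ) * (c0 + c1 * mid N j ^ 2 + c2 * mid N j ^ 4
      + c3 * mid N j ^ 6 + c4 * mid N j ^ 8)
      ≤ c0 + c1 / 3 + c2 / 5 + c3 / 7 + c4 / 9 - c1 * (1 / N : ℝ) ^ 2 / 3 := by
  have hNr : (0 : ℝ) < N := by exact_mod_cast hN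
  set d : ℝ := 1 / N with hd
  have hd0 : 0 < d := by positivity
  let G : ℝ → ℝ := fun s => ((c0 - c1 * d ^ 2 / 3) * s + c1 * s ^ 3 / 3 + c2 * s ^ 5 / 5
    + c3 * s ^ 7 / 7 + c4 * s ^ 9 / 9) / 2
  have key : ∀ m : ℝ, d * (c0 + c1 * m ^ 2 + c2 * m ^ 4 + c3 * m ^ 6 + c4 * m ^ 8)
      ≤ G (m + d) - G (m - d) := by
    intro m
    have : G (m + d) - G (m - d) - d * (c0 + c1 * m ^ 2 + c2 * m ^ 4 + c3 * m ^ 6 + c4 * m ^ 8)
        = c2 * (2 * m ^ 2 * d ^ 3 + d ^ 5 / 5)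
          + c3 * (5 * m ^ 4 * d ^ 3 + 3 * m ^ 2 * d ^ 5 + d ^ 7 / 7)
          + c4 * (28 / 3 * m ^ 6 * d ^ 3 + 14 * m ^ 4 * d ^ 5 + 4 * m ^ 2 * d ^ 7 + d ^ 9 / 9) := by
      simp only [G]; ring
    have h0 : 0 ≤ c2 * (2 * m ^ 2 * d ^ 3 + d ^ 5 / 5)
          + c3 * (5 * m ^ 4 * d ^ 3 + 3 * m ^ 2 * d ^ 5 + d ^ 7 / 7)
          + c4 * (28 / 3 * m ^ 6 * d ^ 3 + 14 * m ^ 4 * d ^ 5 + 4 * m ^ 2 * d ^ 7 + d ^ 9 / 9) := by
      positivity
    linarith
  calc ∑ j ∈ Finset.range N, d * (c0 + c1 * mid N j ^ 2 + c2 * mid N j ^ 4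
      + c3 * mid N j ^ 6 + c4 * mid N j ^ 8)
      ≤ ∑ j ∈ Finset.range N, (G (-1 + 2 * ((j + 1 : ℕ) : ℝ) * d) - G (-1 + 2 * (j : ℝ) * d)) := by
        refine Finset.sum_le_sum fun j _ => ?_
        have e1 : -1 + 2 * ((j + 1 : ℕ) : ℝ) * d = mid N j + d := by
          simp only [mid, ← hd]; push_cast; ring
        have e2 : -1 + 2 * (j : ℝ) * d = mid N j - d := by
          simp only [mid, ← hd]; ring
        rw [e1, e2]
        exact key (mid N j)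
    _ = G (-1 + 2 * (N : ℝ) * d) - G (-1 + 2 * ((0 : ℕ) : ℝ) * d) :=
        Finset.sum_range_sub (fun j : ℕ => G (-1 + 2 * (j : ℝ) * d)) N
    _ = _ := by
        have : -1 + 2 * (N : ℝ) * d = 1 := by rw [hd]; field_simp; ring
        rw [this]
        simp only [G]
        push_cast
        ring

lemma inv_sqrt_le (q : ℝ) (hq : 0 ≤ q) : 1 / √(1 + q) ≤ 1 - q / 2 + 3 * q ^ 2 / 8 := by
  have h1 : 0 < √(1 + q) := Real.sqrt_pos.2 (by linarith)
  have h2 : √(1 + q) ^ 2 = 1 + q := Real.sq_sqrt (by linarith)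
  have h3 : 0 < 1 - q / 2 + 3 * q ^ 2 / 8 := by nlinarith [sq_nonneg (q - 1)]
  rw [div_le_iff₀ h1]
  have h4 : 1 ^ 2 ≤ ((1 - q / 2 + 3 * q ^ 2 / 8) * √(1 + q)) ^ 2 := by
    rw [mul_pow, h2]
    have : (1 - q / 2 + 3 * q ^ 2 / 8) ^ 2 * (1 + q) - 1 ^ 2
        = q ^ 3 * ((3 * q / 8 - 5 / 16) ^ 2 + 135 / 256) := by ring
    have h5 : 0 ≤ q ^ 3 * ((3 * q / 8 - 5 / 16) ^ 2 + 135 / 256) := by positivity
    linarith
  exact (pow_le_pow_iff_left₀ zero_le_one (by positivity) two_ne_zero).1 h4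

lemma poly_abs (p : ℝ) (h0 : 0 ≤ p) (h1 : p ≤ 1) :
    (1 / 2 + (17 / 100) ^ 2 * (p + p ^ 2) / 4
      + (17 / 100) ^ 4 / (1 - 17 / 100) * (p ^ 2 * (1 + 2 * p) ^ 2 / 32)
      + 2 * (17 / 100) * (1 / 100000000)) ^ 2 *
    (1 - ((17 / 100 * (1 + p - (1 / 100000000) ^ 2) / 2) ^ 2 + 2 * ((17 / 100) ^ 2 * p)) / 2
      + 3 * ((17 / 100 * (1 + p - (1 / 100000000) ^ 2) / 2) ^ 2 + 2 * ((17 / 100) ^ 2 * p)) ^ 2 / 8)
    ≤ 2491018 / 10000000 + (-17343 / 10000000) * p + 66203 / 10000000 * p ^ 2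
      + 549 / 10000000 * p ^ 3 + 1690 / 10000000 * p ^ 4 := by
  have k : ∀ n : ℕ, p ^ (n + 1) ≤ p ^ n := fun n => pow_le_pow_of_le_one h0 h1 (by omega)
  have k2 : 0 ≤ p ^ 2 := by positivity
  have k3 : 0 ≤ p ^ 3 := by positivity
  have k12 : 0 ≤ p ^ 12 := by positivity
  have := k 4; have := k 5; have := k 6; have := k 7; have := k 8; have := k 9; have := k 10
  have := k 11
  norm_num at *
  nlinarith

lemma poly_rel (p : ℝ) (h0 : 0 ≤ p) (h1 : p ≤ 1) :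
    (1 / 2 + (21 / 50) ^ 2 * (p + p ^ 2) / 4
      + (21 / 50) ^ 4 / (1 - 21 / 50) * (p ^ 2 * (1 + 2 * p) ^ 2 / 32)
      + 2 * (21 / 50) * (1 / 100000000)) ^ 2
    ≤ (2066116 / 10000000 + 5881 / 10000000 * p + 393371 / 10000000 * p ^ 2
      + 20521 / 10000000 * p ^ 3 + 77300 / 10000000 * p ^ 4)
      * (1 + 21 / 50 * (1 + p - (1 / 100000000) ^ 2) / 2) := by
  have k : ∀ n : ℕ, p ^ (n + 1) ≤ p ^ n := fun n => pow_le_pow_of_le_one h0 h1 (by omega)
  have k2 : 0 ≤ p ^ 2 := by positivity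
  have k3 : 0 ≤ p ^ 3 := by positivity
  have k12 : 0 ≤ p ^ 8 := by positivity
  have := k 4; have := k 5; have := k 6; have := k 7
  norm_num at *
  nlinarith

lemma sum_abs (N : ℕ) (hN : (N : ℝ) = 100000000) : 2 * ∑ j ∈ Finset.range N,
    (1 / N : ℝ) * rho (17 / 100) (1 / N) (mid N j) ^ 2
      / nrm (17 / 100) (1 / N) (mid N j) ≤ 1999 / 4000 := by
  have hN0 : 0 < N := by
    have : (0 : ℝ) < N := by rw [hN]; norm_num
    exact_mod_cast this
  have h := tele (2491018 / 10000000) (-17343 / 10000000) (66203 / 10000000) (549 / 10000000)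
    (1690 / 10000000) (by norm_num) (by norm_num) (by norm_num) N hN0
  have h2 := le_trans (Finset.sum_le_sum (s := Finset.range N) (f := fun j =>
    (1 / N : ℝ) * rho (17 / 100) (1 / N) (mid N j) ^ 2
      / nrm (17 / 100) (1 / N) (mid N j)) fun j hj => ?_) h
  · have h3 : 2491018 / 10000000 + -17343 / 10000000 / 3 + 66203 / 10000000 / 5
        + 549 / 10000000 / 7 + 1690 / 10000000 / 9 - -17343 / 10000000 * (1 / N : ℝ) ^ 2 / 3
        ≤ 1999 / 8000 := by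
      rw [hN]; norm_num
    linarith
  · have hm := mid_bound N j (Finset.mem_range.1 hj)
    generalize mid N j = m at hm ⊢
    have hm1 : m ^ 2 ≤ 1 := le_trans (le_add_of_nonneg_right (by positivity)) hm
    rw [mul_div_assoc]
    refine mul_le_mul_of_nonneg_left ?_ (by positivity)
    have hp := poly_abs (m ^ 2) (by positivity) hm1
    have hq := inv_sqrt_le (aa (17 / 100) (1 / N) m ^ 2 + 2 * (17 / 100 * m) ^ 2)
      (by positivity)
    rw [div_eq_mul_one_div, nrm, add_assoc]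
    refine le_trans (mul_le_mul_of_nonneg_left hq (by positivity)) ?_
    refine le_of_eq_of_le ?_ (hp.trans_eq ?_)
    · simp only [rho, aa, hN]; ring
    · ring

lemma sum_rel (N : ℕ) (hN : (N : ℝ) = 100000000) : 2 * ∑ j ∈ Finset.range N,
    (1 / N : ℝ) * rho (21 / 50) (1 / N) (mid N j) ^ 2
      / (1 + aa (21 / 50) (1 / N) (mid N j)) ≤ 54 / 125 := by
  have hN0 : 0 < N := by
    have : (0 : ℝ) < N := by rw [hN]; norm_num
    exact_mod_cast this
  have h := tele (2066116 / 10000000) (5881 / 10000000) (393371 / 10000000) (20521 / 10000000)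
    (77300 / 10000000) (by norm_num) (by norm_num) (by norm_num) N hN0
  have h2 := le_trans (Finset.sum_le_sum (s := Finset.range N) (f := fun j =>
    (1 / N : ℝ) * rho (21 / 50) (1 / N) (mid N j) ^ 2
      / (1 + aa (21 / 50) (1 / N) (mid N j))) fun j hj => ?_) h
  · have h3 : 2066116 / 10000000 + 5881 / 10000000 / 3 + 393371 / 10000000 / 5
        + 20521 / 10000000 / 7 + 77300 / 10000000 / 9 - 5881 / 10000000 * (1 / N : ℝ) ^ 2 / 3
        ≤ 27 / 125 := by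
      rw [hN]; norm_num
    linarith
  · have hm := mid_bound N j (Finset.mem_range.1 hj)
    generalize mid N j = m at hm ⊢
    have hm1 : m ^ 2 ≤ 1 := le_trans (le_add_of_nonneg_right (by positivity)) hm
    rw [mul_div_assoc]
    refine mul_le_mul_of_nonneg_left ?_ (by positivity)
    have hp := poly_rel (m ^ 2) (by positivity) hm1
    have ha := aa_nonneg (21 / 50) (1 / N) m (by norm_num) (by rw [hN]; norm_num)
      (by rw [hN]; norm_num)
    rw [div_le_iff₀ (by linarith)]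
    refine le_of_eq_of_le ?_ (hp.trans_eq ?_)
    · simp only [rho, hN]; ring
    · simp only [aa, hN]; ring

theorem cover_abs : ∃ (m : ℕ) (u : Fin m → E3) (B : ∀ i, Set (perp (u i))),
    IsCylinderCoverS tet m u B ∧ (∀ i, ∃ a b c : perp (u i), B i = convexHull ℝ {a, b, c}) ∧
      ∑ i, volume (B i) ≤ 1999 / 4000 * AminS tet := by
  obtain ⟨N, hN⟩ : ∃ N : ℕ, (N : ℝ) = 100000000 := ⟨100000000, by norm_num⟩
  have hN4 : 4 ≤ N := by
    have : (4 : ℝ) ≤ N := by rw [hN]; norm_num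
    exact_mod_cast this
  obtain ⟨m, u, B, h1, h2, h3, -⟩ := general (17 / 100) N (by norm_num) (by norm_num) hN4
  refine ⟨m, u, B, h1, h2, ?_⟩
  have hc : (1999 / 4000 : ℝ≥0∞) = ENNReal.ofReal (1999 / 4000) := by
    rw [ENNReal.ofReal_div_of_pos (by norm_num)]; simp
  rw [h3, Amin_tet, hc, ← ENNReal.ofReal_mul (by norm_num), mul_comm (1999 / 4000 : ℝ)]
  exact ENNReal.ofReal_le_ofReal (mul_le_mul_of_nonneg_left (sum_abs N hN) sq2_pos.le)

theorem cover_rel : ∃ (m : ℕ) (u : Fin m → E3) (B : ∀ i, Set (perp (u i))),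
    IsCylinderCoverS tet m u B ∧ (∀ i, ∃ a b c : perp (u i), B i = convexHull ℝ {a, b, c}) ∧
      ∑ i, volume (B i) / projAreaS tet (u i) ≤ 54 / 125 := by
  obtain ⟨N, hN⟩ : ∃ N : ℕ, (N : ℝ) = 100000000 := ⟨100000000, by norm_num⟩
  have hN4 : 4 ≤ N := by
    have : (4 : ℝ) ≤ N := by rw [hN]; norm_num
    exact_mod_cast this
  obtain ⟨m, u, B, h1, h2, -, h3⟩ := general (21 / 50) N (by norm_num) (by norm_num) hN4
  refine ⟨m, u, B, h1, h2, h3.trans ?_⟩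
  have hc : (54 / 125 : ℝ≥0∞) = ENNReal.ofReal (54 / 125) := by
    rw [ENNReal.ofReal_div_of_pos (by norm_num)]; simp
  rw [hc]
  exact ENNReal.ofReal_le_ofReal (sum_rel N hN)

end Vale.Agent.P243
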