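import Vale.Agent.P243.Area

/-!
The regular tetrahedron: it is a convex body, and its smallest projection has area `√2`.
-/

open MeasureTheory Set
open scoped ENNReal RealInnerProductSpace

namespace Vale.Agent.P243

lemma sq2 : √2 * √2 = (2 : ℝ) := Real.mul_self_sqrt (by norm_num)

lemma sq2_pos : 0 < √2 := Real.sqrt_pos.2 (by norm_num)

lemma tet_convex : Convex ℝ tet := convex_convexHull ℝ _

lemma tet_compact : IsCompact tet := Set.Finite.isCompact_convexHull ℝ (toFinite _)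

lemma vA : (!₂[1, 0, 0] : E3) ∈ tet := subset_convexHull ℝ _ (by simp)
lemma vB : (!₂[-1, 0, 0] : E3) ∈ tet := subset_convexHull ℝ _ (by simp)
lemma vC : (!₂[0, 1, √2] : E3) ∈ tet := subset_convexHull ℝ _ (by simp)
lemma vD : (!₂[0, -1, √2] : E3) ∈ tet := subset_convexHull ℝ _ (by simp)

lemma tet_sub {p : E3} (hp : p ∈ tet) : |p 1| ≤ p 2 / √2 ∧ |p 0| ≤ 1 - p 2 / √2 := by
  have h2 := sq2_pos
  have : tet ⊆ {p : E3 | |p 1| ≤ p 2 / √2 ∧ |p 0| ≤ 1 - p 2 / √2} := by
    apply convexHull_min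
    · intro p hp
      simp only [mem_insert_iff, mem_singleton_iff] at hp
      rcases hp with rfl | rfl | rfl | rfl <;> simp [h2.ne']
    · rintro p ⟨h1, h2⟩ q ⟨h3, h4⟩ a b ha hb hab
      simp only [mem_ofPred_eq, PiLp.add_apply, PiLp.smul_apply, smul_eq_mul, abs_le] at *
      have e : (a * p 2 + b * q 2) / √2 = a * (p 2 / √2) + b * (q 2 / √2) := by ring
      rw [e]
      refine ⟨⟨?_, ?_⟩, ?_, ?_⟩ <;>
        nlinarith [mul_le_mul_of_nonneg_left h1.1 ha, mul_le_mul_of_nonneg_left h1.2 ha,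
          mul_le_mul_of_nonneg_left h2.1 ha, mul_le_mul_of_nonneg_left h2.2 ha,
          mul_le_mul_of_nonneg_left h3.1 hb, mul_le_mul_of_nonneg_left h3.2 hb,
          mul_le_mul_of_nonneg_left h4.1 hb, mul_le_mul_of_nonneg_left h4.2 hb]
  exact this hp

lemma mem_tet {p : E3} (h1 : |p 1| ≤ p 2 / √2) (h2 : |p 0| ≤ 1 - p 2 / √2) : p ∈ tet := by
  have hs := sq2_pos
  obtain ⟨h1, h1'⟩ := abs_le.1 h1
  obtain ⟨h2, h2'⟩ := abs_le.1 h2
  refine mem_convexHull_of_exists_fintype (ι := Fin 4)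
    ![(1 - p 2 / √2 + p 0) / 2, (1 - p 2 / √2 - p 0) / 2, (p 2 / √2 + p 1) / 2, (p 2 / √2 - p 1) / 2]
    ![!₂[1, 0, 0], !₂[-1, 0, 0], !₂[0, 1, √2], !₂[0, -1, √2]] ?_ ?_ ?_ ?_
  · intro i; fin_cases i <;> simp <;> linarith
  · simp only [Fin.sum_univ_four, Matrix.cons_val_zero, Matrix.cons_val_one, Matrix.cons_val]
    ring
  · intro i; fin_cases i <;> simp
  · ext i
    fin_cases i <;> simp [Fin.sum_univ_four] <;> field_simp <;> ring

lemma tet_interior : (interior tet).Nonempty := by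
  have hs := sq2_pos
  have ho : IsOpen {p : E3 | |p 1| < p 2 / √2 ∧ |p 0| < 1 - p 2 / √2} := by
    have h1 : IsOpen {p : E3 | |p 1| < p 2 / √2} := isOpen_lt (by fun_prop) (by fun_prop)
    have h2 : IsOpen {p : E3 | |p 0| < 1 - p 2 / √2} := isOpen_lt (by fun_prop) (by fun_prop)
    exact h1.inter h2
  refine ⟨!₂[0, 0, √2 / 2], interior_maximal (fun p hp => mem_tet hp.1.le hp.2.le) ho ?_⟩
  have : √2 / 2 / √2 = (1 / 2 : ℝ) := by field_simp
  simp [this]
  norm_num

lemma tet_body : IsConvexBody tet := ⟨tet_compact, tet_convex, tet_interior⟩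

lemma pa_z (u : E3) (hu : ‖u‖ = 1) : ENNReal.ofReal (2 * |u 2|) ≤ projAreaS tet u := by
  have := quad_le tet_convex u hu (P := !₂[1, 0, 0]) (v := !₂[-2, 0, 0]) (w := !₂[-1, 1, √2])
    (w' := !₂[-1, -1, √2]) vA (by convert vB using 1; ext i; fin_cases i <;> simp; norm_num)
    (by convert vC using 1; ext i; fin_cases i <;> simp)
    (by convert vD using 1; ext i; fin_cases i <;> simp)
  convert this using 2
  have : det3 u !₂[-2, 0, 0] !₂[-1, 1, √2] - det3 u !₂[-2, 0, 0] !₂[-1, -1, √2] = -4 * u 2 := by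
    simp [det3]; ring
  rw [this, abs_mul]; norm_num; ring

lemma pa_add (u : E3) (hu : ‖u‖ = 1) : ENNReal.ofReal (√2 * |u 0 + u 1|) ≤ projAreaS tet u := by
  have := quad_le tet_convex u hu (P := !₂[1, 0, 0]) (v := !₂[-1, 1, √2]) (w := !₂[-2, 0, 0])
    (w' := !₂[-1, -1, √2]) vA (by convert vC using 1; ext i; fin_cases i <;> simp)
    (by convert vB using 1; ext i; fin_cases i <;> simp; norm_num)
    (by convert vD using 1; ext i; fin_cases i <;> simp)
  convert this using 2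
  have : det3 u !₂[-1, 1, √2] !₂[-2, 0, 0] - det3 u !₂[-1, 1, √2] !₂[-1, -1, √2]
      = -(2 * √2) * (u 0 + u 1) := by
    simp [det3]; ring
  rw [this, abs_mul, abs_neg, abs_of_pos (by positivity : (0 : ℝ) < 2 * √2)]; ring

lemma pa_sub (u : E3) (hu : ‖u‖ = 1) : ENNReal.ofReal (√2 * |u 0 - u 1|) ≤ projAreaS tet u := by
  have := quad_le tet_convex u hu (P := !₂[1, 0, 0]) (v := !₂[-1, -1, √2]) (w := !₂[-2, 0, 0])
    (w' := !₂[-1, 1, √2]) vA (by convert vD using 1; ext i; fin_cases i <;> simp)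
    (by convert vB using 1; ext i; fin_cases i <;> simp; norm_num)
    (by convert vC using 1; ext i; fin_cases i <;> simp)
  convert this using 2
  have : det3 u !₂[-1, -1, √2] !₂[-2, 0, 0] - det3 u !₂[-1, -1, √2] !₂[-1, 1, √2]
      = (2 * √2) * (u 0 - u 1) := by
    simp [det3]; ring
  rw [this, abs_mul, abs_of_pos (by positivity : (0 : ℝ) < 2 * √2)]; ring

lemma pa_f1 (u : E3) (hu : ‖u‖ = 1) : ENNReal.ofReal |√2 * u 1 - u 2| ≤ projAreaS tet u := by
  have := tri_le tet_convex u hu (P := !₂[1, 0, 0]) (v := !₂[-2, 0, 0]) (w := !₂[-1, 1, √2])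
    vA (by convert vB using 1; ext i; fin_cases i <;> simp; norm_num)
    (by convert vC using 1; ext i; fin_cases i <;> simp)
  convert this using 2
  have : det3 u !₂[-2, 0, 0] !₂[-1, 1, √2] = 2 * (√2 * u 1 - u 2) := by
    simp [det3]; ring
  rw [this, abs_mul]; norm_num

lemma pa_f2 (u : E3) (hu : ‖u‖ = 1) : ENNReal.ofReal |√2 * u 1 + u 2| ≤ projAreaS tet u := by
  have := tri_le tet_convex u hu (P := !₂[1, 0, 0]) (v := !₂[-2, 0, 0]) (w := !₂[-1, -1, √2])
    vA (by convert vB using 1; ext i; fin_cases i <;> simp; norm_num)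
    (by convert vD using 1; ext i; fin_cases i <;> simp)
  convert this using 2
  have : det3 u !₂[-2, 0, 0] !₂[-1, -1, √2] = 2 * (√2 * u 1 + u 2) := by
    simp [det3]; ring
  rw [this, abs_mul]; norm_num

lemma pa_f3 (u : E3) (hu : ‖u‖ = 1) : ENNReal.ofReal |√2 * u 0 + u 2| ≤ projAreaS tet u := by
  have := tri_le tet_convex u hu (P := !₂[1, 0, 0]) (v := !₂[-1, 1, √2]) (w := !₂[-1, -1, √2])
    vA (by convert vC using 1; ext i; fin_cases i <;> simp)
    (by convert vD using 1; ext i; fin_cases i <;> simp)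
  convert this using 2
  have : det3 u !₂[-1, 1, √2] !₂[-1, -1, √2] = 2 * (√2 * u 0 + u 2) := by
    simp [det3]; ring
  rw [this, abs_mul]; norm_num

lemma pa_f4 (u : E3) (hu : ‖u‖ = 1) : ENNReal.ofReal |√2 * u 0 - u 2| ≤ projAreaS tet u := by
  have := tri_le tet_convex u hu (P := !₂[-1, 0, 0]) (v := !₂[1, 1, √2]) (w := !₂[1, -1, √2])
    vB (by convert vC using 1; ext i; fin_cases i <;> simp)
    (by convert vD using 1; ext i; fin_cases i <;> simp)
  convert this using 2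
  have : det3 u !₂[1, 1, √2] !₂[1, -1, √2] = 2 * (√2 * u 0 - u 2) := by
    simp [det3]; ring
  rw [this, abs_mul]; norm_num

lemma alg_min (a b c : ℝ) (h : a ^ 2 + b ^ 2 + c ^ 2 = 1)
    (h1 : 2 * |c| < √2) (h2 : √2 * |a + b| < √2) (h3 : √2 * |a - b| < √2)
    (h4 : |√2 * b - c| < √2) (h5 : |√2 * b + c| < √2) (h6 : |√2 * a + c| < √2)
    (h7 : |√2 * a - c| < √2) : False := by
  have hs := sq2_pos
  have hq := sq2
  -- cube coordinates
  set w1 := (a + b) * (√2 / 2) with hw1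
  set w2 := (a - b) * (√2 / 2) with hw2
  have e1 : √2 * a = w1 + w2 := by rw [hw1, hw2]; ring
  have e2 : √2 * b = w1 - w2 := by rw [hw1, hw2]; ring
  have e3 : w1 ^ 2 + w2 ^ 2 + c ^ 2 = 1 := by
    rw [hw1, hw2, ← h]; linear_combination (a ^ 2 + b ^ 2) / 2 * hq
  have e4 : 2 * |w1| < √2 := by
    rw [hw1, abs_mul, abs_of_pos (by positivity : 0 < √2 / 2)]; linarith
  have e5 : 2 * |w2| < √2 := by
    rw [hw2, abs_mul, abs_of_pos (by positivity : 0 < √2 / 2)]; linarith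
  rw [e1] at h6 h7
  rw [e2] at h4 h5
  have e6 : |w1| + |w2| + |c| < √2 := by
    rw [abs_lt] at h4 h5 h6 h7
    rcases abs_cases w1 with ⟨k1, _⟩ | ⟨k1, _⟩ <;> rcases abs_cases w2 with ⟨k2, _⟩ | ⟨k2, _⟩ <;>
      rcases abs_cases c with ⟨k3, _⟩ | ⟨k3, _⟩ <;> rw [k1, k2, k3] <;> linarith
  rw [← sq_abs w1, ← sq_abs w2, ← sq_abs c] at e3
  have n1 := abs_nonneg w1
  have n2 := abs_nonneg w2
  have n3 := abs_nonneg c
  nlinarith [mul_le_mul_of_nonneg_left e4.le n1, mul_le_mul_of_nonneg_left e5.le n2,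
    mul_le_mul_of_nonneg_left h1.le n3, mul_lt_mul_of_pos_left e6 hs]

lemma pa_ge (u : E3) (hu : ‖u‖ = 1) : ENNReal.ofReal √2 ≤ projAreaS tet u := by
  by_contra hlt
  push Not at hlt
  have k : ∀ r : ℝ, ENNReal.ofReal r ≤ projAreaS tet u → r < √2 := fun r hr =>
    (ENNReal.ofReal_lt_ofReal_iff sq2_pos).1 (hr.trans_lt hlt)
  exact alg_min _ _ _ (norm_sq3 u hu) (k _ (pa_z u hu)) (k _ (pa_add u hu)) (k _ (pa_sub u hu))
    (k _ (pa_f1 u hu)) (k _ (pa_f2 u hu)) (k _ (pa_f3 u hu)) (k _ (pa_f4 u hu))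

lemma pa_e0 : projAreaS tet !₂[1, 0, 0] ≤ ENNReal.ofReal √2 := by
  have hu : ‖(!₂[1, 0, 0] : E3)‖ = 1 := by simp [EuclideanSpace.norm_eq, Fin.sum_univ_three]
  have hv := vol_tri !₂[1, 0, 0] hu !₂[1, 0, 0] !₂[-1, 1, √2] !₂[-1, -1, √2]
  have : |det3 !₂[1, 0, 0] !₂[-1, 1, √2] !₂[-1, -1, √2]| / 2 = √2 := by
    have : det3 !₂[1, 0, 0] !₂[-1, 1, √2] !₂[-1, -1, √2] = 2 * √2 := by simp [det3]; ring
    rw [this, abs_of_pos (by have := sq2_pos; positivity)]; ring
  rw [this] at hv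
  rw [← hv]
  apply measure_mono
  rw [image_subset_iff]
  apply convexHull_min
  · intro p hp
    simp only [mem_insert_iff, mem_singleton_iff] at hp
    apply subset_convexHull
    rcases hp with rfl | rfl | rfl | rfl
    · left; rfl
    · left
      apply Subtype.ext
      rw [prj_val _ hu, prj_val _ hu, inner3, inner3]
      ext i; fin_cases i <;> simp
    · right; left
      congr 1
      ext i; fin_cases i <;> simp
    · right; right
      rw [mem_singleton_iff]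
      congr 1
      ext i; fin_cases i <;> simp
  · exact (convex_convexHull ℝ _).linear_preimage (prj _).toLinearMap

lemma Amin_tet : AminS tet = ENNReal.ofReal √2 := by
  apply le_antisymm
  · refine le_trans ?_ pa_e0
    exact iInf₂_le_of_le !₂[1, 0, 0]
      (by simp [EuclideanSpace.norm_eq, Fin.sum_univ_three]) le_rfl
  · exact le_iInf₂ pa_ge

end Vale.Agent.P243
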